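import Vale.Agent.Lib.P310F.Diag

namespace Vale.Agent.Results.P310.ATimeLowerBound

open Vale.Agent.Lib.P310F

/-- There are `c > 0` and `d₀` such that for every `d ≥ d₀`, no deterministic single-tape Turing
machine (with any finite state set and tape alphabet, and any way `ι` of writing the input bits)
that accepts exactly the pairs of `d`-WL equivalent graphs, given as adjacency matrices, accepts
every equivalent pair on `m` vertices within `K * (m + 1) ^ (d / c)` steps, for any constant `K`. -/
theorem result : ∃ c d₀ : ℕ, 0 < c ∧ ∀ d, d₀ ≤ d → ∀ (Q Γ : Type) [Fintype Q] [Fintype Γ]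
    (A : DTM Q Γ) (ι : Bool → Γ),
    (∀ (m : ℕ) (G H : SimpleGraph (Fin m)),
      (∃ t, (A.run (wordInput ι (pairWord G H)) t).st = A.acc) ↔ WLEquiv d G H) →
    ¬ ∃ K : ℕ, ∀ (m : ℕ) (G H : SimpleGraph (Fin m)), WLEquiv d G H →
      ∃ t, t ≤ K * (m + 1) ^ (d / c) ∧ (A.run (wordInput ι (pairWord G H)) t).st = A.acc :=
  main_diag

end Vale.Agent.Results.P310.ATimeLowerBound
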