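import Vale.Agent.Lib.P310U.TMSize2

open Vale.Agent.Lib.P310 Vale.Agent.Lib.P310U in
/-- Reduction from deterministic Turing machine time to WL equivalence.  For all state and symbol
types and all `L ≥ 1`, `d ≥ 32 * L + 34` there is a constant `K` such that for every machine `M`, every
`n ≥ 3` and every input `x` of length `n`: the two explicit graphs of `M`, `x`, `L`, `d` have equally
many vertices, at most `K * n ^ 153`, and they are `d`-WL equivalent exactly when `M` does not accept
`x` within `n ^ L` steps. -/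
theorem Vale.Agent.Results.P310.TmToWL.result (Q Γ : Type) [Fintype Q] [DecidableEq Q] [Fintype Γ]
    [DecidableEq Γ] (L d : ℕ) (hL : 1 ≤ L) (hd : 32 * L + 34 ≤ d) :
    ∃ K : ℕ, ∀ (M : DTM Q Γ) (n : ℕ), 3 ≤ n → ∀ x : Fin n → Γ,
      (WLEquiv d (tmG M x L d) (tmH M x L d) ↔ ¬ M.AcceptsWithin x (n ^ L)) ∧
      Fintype.card (tmV M x L d (fun _ => 0)) = Fintype.card (tmV M x L d (tmT Q Γ n L d)) ∧
      Fintype.card (tmV M x L d (fun _ => 0)) ≤ K * n ^ 153 := by
  obtain ⟨K, hK⟩ := vtF_pb Q Γ L d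
  refine ⟨K, fun M n hn x => ⟨tm_wl_iff M hn hL hd x, ?_, ?_⟩⟩
  · refine card_VT_twistR _ ?_ _
    have : 0 < Fintype.card (Gr × SCo (tmN L) (tmP L d)) := by
      rw [Fintype.card_prod, card_SCo]
      exact Nat.mul_pos (by decide) (by omega)
    have h2 : 0 < (d + 2) * Fintype.card (Gr × SCo (tmN L) (tmP L d)) :=
      Nat.mul_pos (by omega) this
    exact Nat.add_pos_left h2 _
  · exact (card_vt_le M x _).trans (hK n (by omega))
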