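import Vale.Agent.Lib.P310V.Final

open Vale.Agent.Lib.P310V in
/-- Unconditional lower bound for deciding Weisfeiler-Leman equivalence.  There are `ε > 0` and `k₀`
such that for every `k ≥ k₀`, no deterministic single-tape Turing machine `A` (finite states, finite
tape alphabet, any coding `ι` of the input bits) decides `k`-WL equivalence of pairs of graphs on `N`
vertices, given by their adjacency matrices, within `C * (N + 1) ^ ⌊k / ε⌋` steps, for any constant
`C`. -/
theorem Vale.Agent.Results.P310.WLLowerBound.result :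
    ∃ ε k₀ : ℕ, 0 < ε ∧ ∀ k, k₀ ≤ k → ∀ (Q Γ : Type) [Fintype Q] [Fintype Γ] (A : DTM Q Γ)
      (ι : Bool → Γ) (C : ℕ), ¬ DecidesWL A ι k (fun N => C * (N + 1) ^ (k / ε)) :=
  wl_lower_bound
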