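import Vale.Agent.Lib.P310V.FinalR

open Vale.Agent.Lib.P310V in
/-- Unconditional lower bound for deciding Weisfeiler-Leman equivalence.  There is a real `c > 0` such
that for every `k ≥ 2`, no deterministic single-tape Turing machine `A` (finite states, finite tape
alphabet, any coding `ι` of the input bits) decides `k`-WL equivalence of pairs of graphs on `N` vertices,
given by their adjacency matrices, within `C * (N + 1) ^ (c * k)` steps, for any constant `C`. -/
theorem Vale.Agent.Results.P310.WLRealExponent.result :
    ∃ c : ℝ, 0 < c ∧ ∀ k : ℕ, 2 ≤ k → ∀ (Q Γ : Type) [Fintype Q] [Fintype Γ] (A : DTM Q Γ)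
      (ι : Bool → Γ) (C : ℝ), ¬ DecidesWithin A ι k (fun N => C * ((N : ℝ) + 1) ^ (c * (k : ℝ))) :=
  wl_lower_real
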