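import Vale.Agent.Lib.P310.Size

open Vale.Agent.Lib.P310 in
/-- For a CNF formula with its variables partitioned in `k` blocks and any `d = 2 * k + m + 1` with
`m ≥ 2 * k + 1`: the explicit graphs `srcGraph` and `tgtGraph` have equally many vertices, at most
`sizeBound` of them, and they are `d`-WL equivalent exactly when the formula is unsatisfiable. -/
theorem Vale.Agent.Results.P310.ZCnfToWL.result {Var ι : Type} [Fintype Var] [DecidableEq Var]
    [Fintype ι] [DecidableEq ι] {k m : ℕ} (hk : 0 < k) (hm : 2 * k + 1 ≤ m)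
    (cl : ι → Finset (Var × Bool)) (bl : Var → Fin k) :
    (WLEquiv (2 * k + m + 1) (srcGraph cl bl m) (tgtGraph cl bl m) ↔ ¬ Satisfiable cl) ∧
    Fintype.card (VT (thick (Fintype.card (RungLabel ι k)) m) (frEdges m (frCols cl bl))
        (fun _ => 0)) =
      Fintype.card (VT (thick (Fintype.card (RungLabel ι k)) m) (frEdges m (frCols cl bl))
        (twist (Fintype.card (RungLabel ι k)) m)) ∧
    ∀ b : ℕ, (∀ i, Fintype.card {v // bl v = i} ≤ b) →
      (∀ i, (Finset.univ.filter fun C => ∃ l ∈ cl C, bl l.1 = i).card ≤ b) →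
      Fintype.card (VT (thick (Fintype.card (RungLabel ι k)) m) (frEdges m (frCols cl bl))
        (fun _ => 0)) ≤ sizeBound (Fintype.card ι) k m b :=
  ⟨wlEquiv_iff_unsat cl bl hk hm, card_VT_twist (card_label_pos hk) _,
    fun _ hv hcl => card_src_le cl bl m hv hcl _⟩
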